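import Mathlib
import Vale.Agent.P333.R2.H99.AmpDef

/-!
Step 2 of the amplifiers with three blocks per contact: definitions for the refined union bound
(locally optimal states).

`K` is the number of contacts.  A word `l : Fin K → Cell` describes the 0-chain (cyclic): the contact
number `p` with its mark `w` and its state `x`, then its three blocks.  A word
`f : Fin (K * 3) → Bool` describes the 1-chain (cyclic): the states of the blocks.
-/

namespace Vale.Agent.P333.R2.Ref

open Vale.Agent.P333 Finset

/-- Cells: the mark `w` of the contact, its state `x`, and the states of the three blocks. -/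
abbrev Cell := Bool × Bool × (Fin 3 → Bool)

/-- `1` if the two states are different. -/
def dif (a b : Bool) : ℕ := if a = b then 0 else 1

/-- Number of neighbours of the block `b = (p, j)` in the 0-chain which are in the other state. -/
def cut0 {K : ℕ} (l : Fin K → Cell) (b : Fin K × Fin 3) : ℕ :=
  if b.2 = 0 then dif (l b.1).2.1 ((l b.1).2.2 0) + dif ((l b.1).2.2 0) ((l b.1).2.2 1)
  else if b.2 = 1 then dif ((l b.1).2.2 0) ((l b.1).2.2 1) + dif ((l b.1).2.2 1) ((l b.1).2.2 2)
  else dif ((l b.1).2.2 1) ((l b.1).2.2 2) + dif ((l b.1).2.2 2) (l (finRotate K b.1)).2.1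

/-- Number of neighbours of the block at position `i` in the 1-chain which are in the other
state. -/
def cut1 {n : ℕ} (f : Fin n → Bool) (i : Fin n) : ℕ :=
  dif (f ((finRotate n).symm i)) (f i) + dif (f i) (f (finRotate n i))

/-- Rises inside a cell, including the step from its contact to its first block. -/
def cellR (a : Cell) : ℕ :=
  rise a.2.1 (a.2.2 0) + rise (a.2.2 0) (a.2.2 1) + rise (a.2.2 1) (a.2.2 2)

/-- Rises of the 0-chain (cyclic). -/
def R0 {K : ℕ} (l : Fin K → Cell) : ℕ :=
  ∑ p, (cellR (l p) + rise ((l p).2.2 2) (l (finRotate K p)).2.1)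

/-- Rises of the 1-chain (cyclic). -/
def R1 {n : ℕ} (f : Fin n → Bool) : ℕ := ∑ i, rise (f i) (f (finRotate n i))

/-- Number of marked contacts that are on. -/
def nX {K : ℕ} (l : Fin K → Cell) : ℕ := ∑ p, ((l p).2.1 && (l p).1).toNat

/-- Number of unmarked contacts that are off. -/
def nY {K : ℕ} (l : Fin K → Cell) : ℕ := ∑ p, (!(l p).2.1 && !(l p).1).toNat

/-- Number of marked contacts. -/
def wOnes {K : ℕ} (l : Fin K → Cell) : ℕ := ∑ p, (l p).1.toNat

/-- Number of blocks that are on (`bones` is the number of ones of a word, see `B1`). -/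
def bOnes {K : ℕ} (l : Fin K → Cell) : ℕ := ∑ p, bones (l p).2.2

/-- The blocks that are on and have a neighbour in the 0-chain that is off (a cut). -/
def setA {K : ℕ} (l : Fin K → Cell) : Finset (Fin K × Fin 3) :=
  univ.filter (fun b => (l b.1).2.2 b.2 = true ∧ cut0 l b = 1)

/-- The positions of the 1-chain that are on and have a neighbour that is off (a cut). -/
def setB {n : ℕ} (f : Fin n → Bool) : Finset (Fin n) :=
  univ.filter (fun i => f i = true ∧ cut1 f i = 1)

/-- No block is an isolated one in the 0-chain. -/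
def ok0 {K : ℕ} (l : Fin K → Cell) : Prop := ∀ b, (l b.1).2.2 b.2 = true → cut0 l b ≤ 1

/-- No position is an isolated one in the 1-chain. -/
def ok1 {n : ℕ} (f : Fin n → Bool) : Prop := ∀ i, f i = true → cut1 f i ≤ 1

/-- Majority of three bits. -/
def maj (a b c : Bool) : Bool := (a && b) || (a && c) || (b && c)

/-- The state of every contact is the majority of its two neighbours and its mark. -/
def okX {K : ℕ} (l : Fin K → Cell) : Prop := ∀ p,
  (l (finRotate K p)).2.1
    = maj ((l p).2.2 2) ((l (finRotate K p)).2.2 0) (l (finRotate K p)).1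

/-- The blocks of the cells, in the order of the 0-chain. -/
def flat {K : ℕ} (l : Fin K → Cell) : Fin (K * 3) → Bool := fun i =>
  (l (finProdFinEquiv.symm i).1).2.2 (finProdFinEquiv.symm i).2

/-- The bad event in the bulk: locally optimal states violating the expansion property, in the form
symmetric under complements. -/
def bad (p q s : ℕ) {K : ℕ} (l : Fin K → Cell) (f : Fin (K * 3) → Bool) : Prop :=
  okX l ∧ ok0 l ∧ ok1 f ∧ p * (R0 l + R1 f) + q * s ≤ q * nX l ∧
    p * (R0 l + R1 f) + q * s ≤ q * nY l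

/-- The weight of a pair `(l, f)` in the union bound: `w` marked contacts, `n` ones, `a` ones with a
cut in the 0-chain, `b` ones with a cut in the 1-chain. -/
noncomputable def wgt (K w n a b : ℕ) : ℝ :=
  (1 / (K.choose w : ℝ)) * (1 / ((K * 3).choose n : ℝ))
    * (((n - b).choose a : ℝ) / (n.choose a : ℝ))

/-- What the certificates in the bulk have to give (densities between `r` and `1 - r`, at least half
of the contacts marked). -/
def BulkBound (p q : ℕ) (r : ℝ) : Prop :=
  ∃ (C γ : ℝ) (d : ℕ), 0 < C ∧ 0 < γ ∧ γ < 1 ∧ ∀ (s K w n a : ℕ), 0 < K → w ≤ K → K ≤ 2 * w →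
    n ≤ K * 3 → a ≤ n → r ≤ (n : ℝ) / (K * 3 : ℕ) → (n : ℝ) / (K * 3 : ℕ) ≤ 1 - r →
    ∀ T : Finset ((Fin K → Cell) × (Fin (K * 3) → Bool)),
    (∀ t ∈ T, wOnes t.1 = w ∧ bOnes t.1 = n ∧ bones t.2 = n ∧ (setA t.1).card = a ∧
      bad p q s t.1 t.2) →
    ∑ t ∈ T, wgt K w n a (setB t.2).card ≤ C * γ ^ s * ((K + 1 : ℕ) : ℝ) ^ d

/-- The positions (in the order of the 0-chain) of the blocks of `setA`. -/
def flatA {K : ℕ} (l : Fin K → Cell) : Finset (Fin (K * 3)) :=
  (setA l).map finProdFinEquiv.toEmbedding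

/-- The event: some labelling is bad and no block has cuts in both chains. -/
def ev (K : ℕ) (P : (Fin K → Cell) → (Fin (K * 3) → Bool) → Prop) (V : Fin K → Bool)
    (π : Equiv.Perm (Fin K) × Equiv.Perm (Fin (K * 3))) : Prop :=
  ∃ l : Fin K → Cell, (fun i => (l i).1) = (fun i => V (π.1 i)) ∧
    P l (fun i => flat l (π.2 i)) ∧
    ∀ i ∈ setB (fun i => flat l (π.2 i)), π.2 i ∉ flatA l

/-- Bulk event. -/
def PB (p q s : ℕ) (r : ℝ) {K : ℕ} (l : Fin K → Cell) (f : Fin (K * 3) → Bool) : Prop :=
  bad p q s l f ∧ r ≤ (bones f : ℝ) / (K * 3 : ℕ) ∧ (bones f : ℝ) / (K * 3 : ℕ) ≤ 1 - r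

end Vale.Agent.P333.R2.Ref
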