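import Mathlib
import Vale.Agent.P333.R2.H712.RefDefs

/-!
Restricted permutation count and the refined union bound.
-/

namespace Vale.Agent.P333.R2.Ref

open Vale.Agent.P333 Finset

/-- Permutations carrying one labelling to another. -/
theorem card_perm_fiber_le {n : ℕ} {L : Type*} [Fintype L] [DecidableEq L] (G H : Fin n → L) :
    ((univ : Finset (Equiv.Perm (Fin n))).filter (fun τ => (fun i => G (τ i)) = H)).card
      ≤ ∏ c, ((univ.filter (fun i => H i = c)).card).factorial := by
  classical
  rcases ((univ : Finset (Equiv.Perm (Fin n))).filter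
    (fun τ => (fun i => G (τ i)) = H)).eq_empty_or_nonempty with h0 | ⟨τ₀, h0⟩
  · rw [h0, card_empty]
    exact Nat.zero_le _
  · have hτ₀ : ∀ i, G (τ₀ i) = H i := fun i => congrFun (mem_filter.mp h0).2 i
    have h1 : Fintype.card {g : Equiv.Perm (Fin n) // H ∘ g = H}
        = ∏ c, ((univ.filter (fun i => H i = c)).card).factorial := by
      rw [DomMulAct.stabilizer_card]
      apply prod_congr rfl
      intro c _
      rw [Fintype.card_subtype]
    rw [← h1, Fintype.card_subtype]
    apply card_le_card_of_injOn (fun τ => τ₀⁻¹ * τ)
    · intro τ hτ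
      have hτ' : ∀ i, G (τ i) = H i := fun i => congrFun (mem_filter.mp hτ).2 i
      rw [mem_coe, mem_filter]
      refine ⟨mem_univ _, ?_⟩
      funext i
      have e := hτ₀ ((τ₀⁻¹ * τ) i)
      have e2 : τ₀ ((τ₀⁻¹ * τ) i) = τ i := by simp
      rw [e2, hτ'] at e
      exact e.symm
    · intro a _ b _ hab
      exact mul_left_cancel hab

/-- Permutations carrying `g` to `h` and no element of `SB` to an element of `SA`. -/
theorem card_restricted_le {n : ℕ} (g h : Fin n → Bool) (SA SB : Finset (Fin n))
    (hA : ∀ y ∈ SA, g y = true) (hB : ∀ i ∈ SB, h i = true) :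
    ((univ : Finset (Equiv.Perm (Fin n))).filter (fun τ => (fun i => g (τ i)) = h ∧
      ∀ i ∈ SB, τ i ∉ SA)).card
      ≤ (bones h - SB.card).choose SA.card *
        (SA.card.factorial * (bones h - SA.card).factorial * (n - bones h).factorial) := by
  classical
  set One : Finset (Fin n) := univ.filter (fun i => h i = true) with hOne
  have hOc : One.card = bones h := (bones_eq_card h).symm
  have hBs : SB ⊆ One := by
    intro i hi
    rw [hOne, mem_filter]
    exact ⟨mem_univ _, hB i hi⟩
  have hsub : (univ : Finset (Equiv.Perm (Fin n))).filter (fun τ => (fun i => g (τ i)) = h ∧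
      ∀ i ∈ SB, τ i ∉ SA) ⊆ (powersetCard SA.card (One \ SB)).biUnion (fun S =>
        univ.filter (fun τ : Equiv.Perm (Fin n) =>
          (fun i => (fun y => (g y, decide (y ∈ SA))) (τ i)) = fun i => (h i, decide (i ∈ S)))) := by
    intro τ hτ
    obtain ⟨-, h1, h2⟩ := mem_filter.mp hτ
    have h1' : ∀ i, g (τ i) = h i := fun i => congrFun h1 i
    rw [mem_biUnion]
    refine ⟨univ.filter (fun i => τ i ∈ SA), ?_, ?_⟩
    · rw [mem_powersetCard]
      constructor
      · intro i hi
        have hi' := (mem_filter.mp hi).2
        rw [mem_sdiff, hOne, mem_filter]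
        refine ⟨⟨mem_univ _, ?_⟩, fun hiB => h2 i hiB hi'⟩
        rw [← h1']
        exact hA _ hi'
      · have : univ.filter (fun i => τ i ∈ SA) = SA.map τ⁻¹.toEmbedding := by
          ext i
          rw [mem_filter, mem_map]
          constructor
          · rintro ⟨_, hi⟩
            exact ⟨τ i, hi, by simp⟩
          · rintro ⟨y, hy, rfl⟩
            refine ⟨mem_univ _, ?_⟩
            simpa using hy
        rw [this, card_map]
    · rw [mem_filter]
      refine ⟨mem_univ _, ?_⟩
      funext i
      simp [h1']
  refine (card_le_card hsub).trans (card_biUnion_le.trans ?_)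
  calc ∑ S ∈ powersetCard SA.card (One \ SB), (univ.filter (fun τ : Equiv.Perm (Fin n) =>
          (fun i => (fun y => (g y, decide (y ∈ SA))) (τ i)) = fun i => (h i, decide (i ∈ S)))).card
      ≤ ∑ _S ∈ powersetCard SA.card (One \ SB),
        (SA.card.factorial * (bones h - SA.card).factorial * (n - bones h).factorial) := by
        apply sum_le_sum
        intro S hS
        rw [mem_powersetCard] at hS
        obtain ⟨hS1, hS2⟩ := hS
        have hSO : S ⊆ One := hS1.trans sdiff_subset
        refine (card_perm_fiber_le (fun y => (g y, decide (y ∈ SA)))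
          (fun i => (h i, decide (i ∈ S)))).trans (le_of_eq ?_)
        rw [Fintype.prod_prod_type]
        simp only [Fintype.prod_bool]
        have c1 : (univ.filter (fun i : Fin n => (h i, decide (i ∈ S)) = (true, true))) = S := by
          ext i
          simp only [mem_filter, mem_univ, true_and, Prod.mk.injEq, decide_eq_true_eq]
          constructor
          · exact fun hi => hi.2
          · intro hi
            have := hSO hi
            rw [hOne, mem_filter] at this
            exact ⟨this.2, hi⟩
        have c2 : (univ.filter (fun i : Fin n => (h i, decide (i ∈ S)) = (true, false))) = One \ S := by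
          ext i
          simp only [mem_filter, mem_univ, true_and, Prod.mk.injEq, decide_eq_false_iff_not,
            mem_sdiff, hOne]
        have c3 : (univ.filter (fun i : Fin n => (h i, decide (i ∈ S)) = (false, true))) = ∅ := by
          rw [filter_eq_empty_iff]
          intro i _ hi
          simp only [Prod.mk.injEq, decide_eq_true_eq] at hi
          have := hSO hi.2
          rw [hOne, mem_filter] at this
          rw [hi.1] at this
          exact absurd this.2 (by decide)
        have c4 : (univ.filter (fun i : Fin n => (h i, decide (i ∈ S)) = (false, false))) = univ \ One := by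
          ext i
          simp only [mem_filter, mem_univ, true_and, Prod.mk.injEq, decide_eq_false_iff_not,
            mem_sdiff, hOne]
          constructor
          · rintro ⟨a, _⟩
            rw [a]
            decide
          · intro hi
            refine ⟨by simpa using hi, fun hiS => ?_⟩
            have := hSO hiS
            rw [hOne, mem_filter] at this
            exact hi this.2
        rw [c1, c2, c3, c4, card_empty, card_sdiff_of_subset hSO, card_sdiff_of_subset (subset_univ _),
          card_univ, Fintype.card_fin, hOc, hS2]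
        simp
    _ = _ := by
        rw [sum_const, card_powersetCard, smul_eq_mul, card_sdiff_of_subset hBs, hOc]

/-- Real form of the restricted count. -/
theorem card_restricted_real {n : ℕ} (g h : Fin n → Bool) (SA SB : Finset (Fin n))
    (hA : ∀ y ∈ SA, g y = true) (hB : ∀ i ∈ SB, h i = true) :
    (((univ : Finset (Equiv.Perm (Fin n))).filter (fun τ => (fun i => g (τ i)) = h ∧
      ∀ i ∈ SB, τ i ∉ SA)).card : ℝ)
      ≤ (n.factorial : ℝ) * ((1 / (n.choose (bones h) : ℝ)) *
        (((bones h - SB.card).choose SA.card : ℝ) / ((bones h).choose SA.card : ℝ))) := by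
  have h1 := card_restricted_le g h SA SB hA hB
  have hn := bones_le h
  by_cases hle : SA.card ≤ bones h
  · have e1 := Nat.choose_mul_factorial_mul_factorial hn
    have e2 := Nat.choose_mul_factorial_mul_factorial hle
    have p1 : (0 : ℝ) < n.choose (bones h) := by exact_mod_cast Nat.choose_pos hn
    have p2 : (0 : ℝ) < (bones h).choose SA.card := by exact_mod_cast Nat.choose_pos hle
    have e1' : (n.choose (bones h) : ℝ) * (bones h).factorial * (n - bones h).factorial
        = n.factorial := by exact_mod_cast e1
    have e2' : ((bones h).choose SA.card : ℝ) * SA.card.factorial * (bones h - SA.card).factorial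
        = (bones h).factorial := by exact_mod_cast e2
    have h2 : (((univ : Finset (Equiv.Perm (Fin n))).filter (fun τ => (fun i => g (τ i)) = h ∧
      ∀ i ∈ SB, τ i ∉ SA)).card : ℝ) ≤ ((bones h - SB.card).choose SA.card : ℝ) *
        (SA.card.factorial * (bones h - SA.card).factorial * (n - bones h).factorial) := by
      exact_mod_cast h1
    refine h2.trans (le_of_eq ?_)
    rw [← e1', ← e2']
    field_simp
  · have hz : (bones h - SB.card).choose SA.card = 0 := by
      apply Nat.choose_eq_zero_of_lt
      omega
    rw [hz, zero_mul] at h1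
    have h3 : ((univ : Finset (Equiv.Perm (Fin n))).filter (fun τ => (fun i => g (τ i)) = h ∧
      ∀ i ∈ SB, τ i ∉ SA)).card = 0 := by omega
    rw [h3, hz]
    simp

theorem bones_flat {K : ℕ} (l : Fin K → Cell) : bones (flat l) = bOnes l := by
  unfold bones bOnes flat
  rw [Equiv.sum_comp finProdFinEquiv.symm (fun p : Fin K × Fin 3 => ((l p.1).2.2 p.2).toNat),
    Fintype.sum_prod_type]
  rfl

theorem flatA_true {K : ℕ} (l : Fin K → Cell) (y : Fin (K * 3)) (hy : y ∈ flatA l) :
    flat l y = true := by
  unfold flatA at hy
  rw [mem_map] at hy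
  obtain ⟨b, hb, rfl⟩ := hy
  unfold setA at hb
  rw [mem_filter] at hb
  unfold flat
  simpa using hb.2.1

theorem setB_true {n : ℕ} (f : Fin n → Bool) (i : Fin n) (hi : i ∈ setB f) : f i = true := by
  unfold setB at hi
  exact (mem_filter.mp hi).2.1

theorem card_flatA {K : ℕ} (l : Fin K → Cell) : (flatA l).card = (setA l).card := by
  unfold flatA
  rw [card_map]

theorem card_setA_le {K : ℕ} (l : Fin K → Cell) : (setA l).card ≤ bOnes l := by
  rw [← card_flatA, ← bones_flat, bones_eq_card]
  apply card_le_card
  intro y hy
  rw [mem_filter]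
  exact ⟨mem_univ _, flatA_true l y hy⟩

open Classical in
/-- The refined union bound. -/
theorem ev_card_le (K : ℕ) (P : (Fin K → Cell) → (Fin (K * 3) → Bool) → Prop)
    (V : Fin K → Bool) (th : ℝ)
    (hth : ∀ (n a : ℕ) (T : Finset ((Fin K → Cell) × (Fin (K * 3) → Bool))), n ≤ K * 3 → a ≤ n →
      (∀ t ∈ T, wOnes t.1 = bones V ∧ bOnes t.1 = n ∧ bones t.2 = n ∧ (setA t.1).card = a ∧
        P t.1 t.2) →
      ∑ t ∈ T, wgt K (bones V) n a (setB t.2).card ≤ th) :
    (((univ : Finset (Equiv.Perm (Fin K) × Equiv.Perm (Fin (K * 3)))).filter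
      (fun π => ev K P V π)).card : ℝ)
      ≤ (K.factorial : ℝ) * ((K * 3).factorial : ℝ) * ((((K * 3 : ℕ) : ℝ) + 1) ^ 2 * th) := by
  set w := bones V with hw
  let Bad : Finset ((Fin K → Cell) × (Fin (K * 3) → Bool)) :=
    univ.filter (fun t => wOnes t.1 = w ∧ bOnes t.1 = bones t.2 ∧ P t.1 t.2)
  have hsub : (univ : Finset (Equiv.Perm (Fin K) × Equiv.Perm (Fin (K * 3)))).filter
      (fun π => ev K P V π) ⊆ Bad.biUnion (fun t =>
        ((univ : Finset (Equiv.Perm (Fin K))).filter
          (fun σ => (fun i => V (σ i)) = fun i => (t.1 i).1)) ×ˢ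
        ((univ : Finset (Equiv.Perm (Fin (K * 3)))).filter
          (fun τ => (fun i => flat t.1 (τ i)) = t.2 ∧ ∀ i ∈ setB t.2, τ i ∉ flatA t.1))) := by
    intro π hπ
    rw [mem_filter] at hπ
    obtain ⟨l, hl, hb, hd⟩ := hπ.2
    rw [mem_biUnion]
    refine ⟨(l, fun i => flat l (π.2 i)), ?_, ?_⟩
    · simp only [Bad, mem_filter, mem_univ, true_and]
      refine ⟨?_, ?_, hb⟩
      · have h1 : wOnes l = bones (fun i => (l i).1) := rfl
        rw [h1, hl, bones_perm]
      · rw [bones_perm, bones_flat]
    · simp only [mem_product, mem_filter, mem_univ, true_and]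
      exact ⟨hl.symm, hd⟩
  have h1 : (((univ : Finset (Equiv.Perm (Fin K) × Equiv.Perm (Fin (K * 3)))).filter
      (fun π => ev K P V π)).card : ℝ)
      ≤ ∑ t ∈ Bad, (K.factorial : ℝ) * ((K * 3).factorial : ℝ) *
        wgt K w (bones t.2) (setA t.1).card (setB t.2).card := by
    have h0 := (card_le_card hsub).trans card_biUnion_le
    have h0' : (((univ : Finset (Equiv.Perm (Fin K) × Equiv.Perm (Fin (K * 3)))).filter
      (fun π => ev K P V π)).card : ℝ) ≤ ((∑ t ∈ Bad, (((univ : Finset (Equiv.Perm (Fin K))).filter
          (fun σ => (fun i => V (σ i)) = fun i => (t.1 i).1)) ×ˢ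
        ((univ : Finset (Equiv.Perm (Fin (K * 3)))).filter
          (fun τ => (fun i => flat t.1 (τ i)) = t.2 ∧ ∀ i ∈ setB t.2, τ i ∉ flatA t.1))).card
            : ℕ) : ℝ) := Nat.cast_le.mpr h0
    refine h0'.trans ?_
    rw [Nat.cast_sum]
    apply sum_le_sum
    intro t ht
    simp only [Bad, mem_filter, mem_univ, true_and] at ht
    rw [card_product, Nat.cast_mul]
    have h2 := card_comp_eq_le V (fun i => (t.1 i).1)
    have h3 : bones (fun i => (t.1 i).1) = w := ht.1
    rw [h3] at h2
    have e1 := Nat.choose_mul_factorial_mul_factorial (bones_le V)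
    rw [← hw] at e1
    have p1 : (0 : ℝ) < K.choose w := by exact_mod_cast Nat.choose_pos (bones_le V)
    have e1' : (K.choose w : ℝ) * w.factorial * (K - w).factorial = K.factorial := by
      exact_mod_cast e1
    have h4 : (((univ : Finset (Equiv.Perm (Fin K))).filter
          (fun σ => (fun i => V (σ i)) = fun i => (t.1 i).1)).card : ℝ)
        ≤ (K.factorial : ℝ) * (1 / (K.choose w : ℝ)) := by
      have h5 : (((univ : Finset (Equiv.Perm (Fin K))).filter
          (fun σ => (fun i => V (σ i)) = fun i => (t.1 i).1)).card : ℝ)
          ≤ (w.factorial : ℝ) * (K - w).factorial := by exact_mod_cast h2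
      refine h5.trans (le_of_eq ?_)
      rw [← e1']
      field_simp
    have h6 := card_restricted_real (flat t.1) t.2 (flatA t.1) (setB t.2)
      (fun y hy => flatA_true t.1 y hy) (fun i hi => setB_true t.2 i hi)
    rw [card_flatA] at h6
    calc _ ≤ ((K.factorial : ℝ) * (1 / (K.choose w : ℝ))) *
          (((K * 3).factorial : ℝ) * ((1 / ((K * 3).choose (bones t.2) : ℝ)) *
        (((bones t.2 - (setB t.2).card).choose (setA t.1).card : ℝ)
          / ((bones t.2).choose (setA t.1).card : ℝ)))) :=
          mul_le_mul h4 h6 (by positivity) (by positivity)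
      _ = _ := by
          unfold wgt
          ring
  refine h1.trans ?_
  rw [← mul_sum]
  apply mul_le_mul_of_nonneg_left _ (by positivity)
  have hth0 : 0 ≤ th := by
    have := hth 0 0 ∅ (Nat.zero_le _) le_rfl (by simp)
    simpa using this
  have h4 : ∑ t ∈ Bad, wgt K w (bones t.2) (setA t.1).card (setB t.2).card
      = ∑ u ∈ range (K * 3 + 1) ×ˢ range (K * 3 + 1),
        ∑ t ∈ Bad with (bones t.2, (setA t.1).card) = u,
          wgt K w (bones t.2) (setA t.1).card (setB t.2).card := by
    rw [sum_fiberwise_of_maps_to]
    intro t ht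
    simp only [Bad, mem_filter, mem_univ, true_and] at ht
    rw [mem_product, mem_range, mem_range]
    have a1 := bones_le t.2
    have a2 := card_setA_le t.1
    constructor
    · show bones t.2 < _
      omega
    · show (setA t.1).card < _
      omega
  rw [h4]
  calc ∑ u ∈ range (K * 3 + 1) ×ˢ range (K * 3 + 1),
        ∑ t ∈ Bad with (bones t.2, (setA t.1).card) = u,
          wgt K w (bones t.2) (setA t.1).card (setB t.2).card
      ≤ ∑ _u ∈ range (K * 3 + 1) ×ˢ range (K * 3 + 1), th := by
        apply sum_le_sum
        intro u hu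
        rw [mem_product, mem_range, mem_range] at hu
        by_cases hau : u.2 ≤ u.1
        · refine le_trans (le_of_eq ?_) (hth u.1 u.2
            (Bad.filter (fun t => (bones t.2, (setA t.1).card) = u)) (by omega) hau ?_)
          · apply sum_congr rfl
            intro t ht
            have := (mem_filter.mp ht).2
            have e1 : bones t.2 = u.1 := congrArg Prod.fst this
            have e2 : (setA t.1).card = u.2 := congrArg Prod.snd this
            rw [e1, e2]
          · intro t ht
            rw [mem_filter] at ht
            have e1 : bones t.2 = u.1 := congrArg Prod.fst ht.2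
            have e2 : (setA t.1).card = u.2 := congrArg Prod.snd ht.2
            have h5 := ht.1
            simp only [Bad, mem_filter, mem_univ, true_and] at h5
            exact ⟨h5.1, h5.2.1.trans e1, e1, e2, h5.2.2⟩
        · have : Bad.filter (fun t => (bones t.2, (setA t.1).card) = u) = ∅ := by
            rw [filter_eq_empty_iff]
            intro t ht h6
            have e1 : bones t.2 = u.1 := congrArg Prod.fst h6
            have e2 : (setA t.1).card = u.2 := congrArg Prod.snd h6
            simp only [Bad, mem_filter, mem_univ, true_and] at ht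
            have := card_setA_le t.1
            omega
          rw [this, sum_empty]
          exact hth0
    _ = (((K * 3 : ℕ) : ℝ) + 1) ^ 2 * th := by
        rw [sum_const, card_product, card_range, nsmul_eq_mul]
        push_cast
        ring

end Vale.Agent.P333.R2.Ref
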