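import Mathlib
import Vale.Agent.P333.R2.H712.Count

/-!
Deterministic part of the refined union bound: locally optimal states, complements, and the
expansion property from the absence of bad configurations.
-/

namespace Vale.Agent.P333.R2.Ref

open Vale.Agent.P333 Finset

/-- The word of the marks `W`, the contact states `x` and the block states `g` (in the order of the
0-chain). -/
def mk {K : ℕ} (W x : Fin K → Bool) (g : Fin (K * 3) → Bool) : Fin K → Cell :=
  fun p => (W p, x p, fun j => g (finProdFinEquiv (p, j)))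

theorem flat_mk {K : ℕ} (W x : Fin K → Bool) (g : Fin (K * 3) → Bool) : flat (mk W x g) = g := by
  funext i
  show g (finProdFinEquiv (finProdFinEquiv.symm i)) = g i
  rw [Equiv.apply_symm_apply]

/-- One-cell identity. -/
theorem cell_ident0 (x0 g1 g2 x1 : Bool) :
    rise x0 false + rise false g1 + rise g1 g2 + rise g2 x1 + (dif x0 true + dif true g1)
      = rise x0 true + rise true g1 + rise g1 g2 + rise g2 x1 + 1 := by
  revert x0 g1 g2 x1; decide

theorem cell_ident1 (x0 g0 g2 x1 : Bool) :
    rise x0 g0 + rise g0 false + rise false g2 + rise g2 x1 + (dif g0 true + dif true g2)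
      = rise x0 g0 + rise g0 true + rise true g2 + rise g2 x1 + 1 := by
  revert x0 g0 g2 x1; decide

theorem cell_ident2 (x0 g0 g1 x1 : Bool) :
    rise x0 g0 + rise g0 g1 + rise g1 false + rise false x1 + (dif g1 true + dif true x1)
      = rise x0 g0 + rise g0 g1 + rise g1 true + rise true x1 + 1 := by
  revert x0 g0 g1 x1; decide

/-- Switching off a block changes the rises of the 0-chain by `1 - cut0`. -/
theorem R0_update {K : ℕ} (W x : Fin K → Bool) (g : Fin (K * 3) → Bool) (b : Fin K × Fin 3)
    (hb : g (finProdFinEquiv b) = true) :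
    R0 (mk W x (Function.update g (finProdFinEquiv b) false)) + cut0 (mk W x g) b
      = R0 (mk W x g) + 1 := by
  classical
  obtain ⟨p, j⟩ := b
  set g' := Function.update g (finProdFinEquiv (p, j)) false with hg'
  have hother : ∀ p' j', (p', j') ≠ (p, j) → g' (finProdFinEquiv (p', j')) = g (finProdFinEquiv (p', j')) := by
    intro p' j' h
    rw [hg', Function.update_of_ne]
    intro h2
    exact h (finProdFinEquiv.injective h2)
  have hself : g' (finProdFinEquiv (p, j)) = false := by rw [hg', Function.update_self]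
  have h1 : ∑ p' ∈ univ.erase p, (cellR (mk W x g' p') + rise ((mk W x g' p').2.2 2)
        (mk W x g' (finRotate K p')).2.1)
      = ∑ p' ∈ univ.erase p, (cellR (mk W x g p') + rise ((mk W x g p').2.2 2)
        (mk W x g (finRotate K p')).2.1) := by
    apply sum_congr rfl
    intro p' hp'
    have hne : p' ≠ p := (mem_erase.mp hp').1
    have e : ∀ j', g' (finProdFinEquiv (p', j')) = g (finProdFinEquiv (p', j')) := fun j' =>
      hother p' j' (fun h => hne (congrArg Prod.fst h))
    simp only [mk, cellR, e]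
  unfold R0
  rw [← add_sum_erase univ _ (mem_univ p), ← add_sum_erase univ (fun p' =>
    cellR (mk W x g p') + rise ((mk W x g p').2.2 2) (mk W x g (finRotate K p')).2.1) (mem_univ p), h1]
  have key : cellR (mk W x g' p) + rise ((mk W x g' p).2.2 2) (mk W x g' (finRotate K p)).2.1
      + cut0 (mk W x g) (p, j)
      = cellR (mk W x g p) + rise ((mk W x g p).2.2 2) (mk W x g (finRotate K p)).2.1 + 1 := by
    fin_cases j
    · have e0 : g' (finProdFinEquiv (p, 0)) = false := hself
      have f0 : g (finProdFinEquiv (p, 0)) = true := hb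
      have e1 : g' (finProdFinEquiv (p, 1)) = g (finProdFinEquiv (p, 1)) := hother p 1 (by simp)
      have e2 : g' (finProdFinEquiv (p, 2)) = g (finProdFinEquiv (p, 2)) := hother p 2 (by simp)
      have := cell_ident0 (x p) (g (finProdFinEquiv (p, 1))) (g (finProdFinEquiv (p, 2)))
        (x (finRotate K p))
      simp only [mk, cellR, cut0, e0, e1, e2, f0] at this ⊢
      simpa using this
    · have e0 : g' (finProdFinEquiv (p, 0)) = g (finProdFinEquiv (p, 0)) := hother p 0 (by simp)
      have f1 : g (finProdFinEquiv (p, 1)) = true := hb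
      have e1 : g' (finProdFinEquiv (p, 1)) = false := hself
      have e2 : g' (finProdFinEquiv (p, 2)) = g (finProdFinEquiv (p, 2)) := hother p 2 (by simp)
      have := cell_ident1 (x p) (g (finProdFinEquiv (p, 0))) (g (finProdFinEquiv (p, 2)))
        (x (finRotate K p))
      simp only [mk, cellR, cut0, e0, e1, e2, f1] at this ⊢
      simpa using this
    · have e0 : g' (finProdFinEquiv (p, 0)) = g (finProdFinEquiv (p, 0)) := hother p 0 (by simp)
      have e1 : g' (finProdFinEquiv (p, 1)) = g (finProdFinEquiv (p, 1)) := hother p 1 (by simp)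
      have f2 : g (finProdFinEquiv (p, 2)) = true := hb
      have e2 : g' (finProdFinEquiv (p, 2)) = false := hself
      have := cell_ident2 (x p) (g (finProdFinEquiv (p, 0))) (g (finProdFinEquiv (p, 1)))
        (x (finRotate K p))
      simp only [mk, cellR, cut0, e0, e1, e2, f2] at this ⊢
      simpa using this
  omega

/-- Switching off a position changes the rises of the 1-chain by `1 - cut1`. -/
theorem R1_update {n : ℕ} (hn : 2 ≤ n) (f : Fin n → Bool) (i : Fin n) (hi : f i = true) :
    R1 (Function.update f i false) + cut1 f i = R1 f + 1 := by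
  classical
  set f' := Function.update f i false with hf'
  set a := (finRotate n).symm i with ha
  have hai : finRotate n a = i := by rw [ha]; exact Equiv.apply_symm_apply _ _
  have hne : i ≠ finRotate n i := finRotate_ne hn i
  have hane : a ≠ i := by
    intro h
    rw [h] at hai
    exact hne hai.symm
  have hself : f' i = false := by rw [hf', Function.update_self]
  have hother : ∀ j, j ≠ i → f' j = f j := fun j hj => by rw [hf', Function.update_of_ne hj]
  have hmem : a ∈ (univ : Finset (Fin n)).erase i := mem_erase.mpr ⟨hane, mem_univ _⟩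
  have h1 : ∑ j ∈ (univ.erase i).erase a, rise (f' j) (f' (finRotate n j))
      = ∑ j ∈ (univ.erase i).erase a, rise (f j) (f (finRotate n j)) := by
    apply sum_congr rfl
    intro j hj
    have hj1 := (mem_erase.mp hj).1
    have hj2 := (mem_erase.mp (mem_erase.mp hj).2).1
    rw [hother j hj2, hother]
    intro h
    apply hj1
    rw [ha, ← h]
    exact (Equiv.symm_apply_apply _ _).symm
  unfold R1
  rw [← add_sum_erase univ _ (mem_univ i), ← add_sum_erase (univ.erase i) _ hmem,
    ← add_sum_erase univ (fun j => rise (f j) (f (finRotate n j))) (mem_univ i),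
    ← add_sum_erase (univ.erase i) (fun j => rise (f j) (f (finRotate n j))) hmem, h1]
  have key : rise (f' i) (f' (finRotate n i)) + rise (f' a) (f' (finRotate n a)) + cut1 f i
      = rise (f i) (f (finRotate n i)) + rise (f a) (f (finRotate n a)) + 1 := by
    unfold cut1
    rw [← ha, hai, hself, hother a hane, hother _ hne.symm, hi]
    cases f a <;> cases f (finRotate n i) <;> decide
  omega

/-- Total number of rises of a state. -/
def RR {K : ℕ} (τ : Equiv.Perm (Fin (K * 3))) (x : Fin K → Bool) (g : Fin (K * 3) → Bool) : ℕ :=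
  R0 (mk (fun _ => false) x g) + R1 (fun i => g (τ i))

theorem R0_mk {K : ℕ} (W x : Fin K → Bool) (g : Fin (K * 3) → Bool) :
    R0 (mk W x g) = R0 (mk (fun _ => false) x g) := rfl

theorem cut0_mk {K : ℕ} (W x : Fin K → Bool) (g : Fin (K * 3) → Bool) (b : Fin K × Fin 3) :
    cut0 (mk W x g) b = cut0 (mk (fun _ => false) x g) b := rfl

theorem bones_update {n : ℕ} (g : Fin n → Bool) (y : Fin n) (hy : g y = true) :
    bones (Function.update g y false) + 1 = bones g := by
  classical
  unfold bones
  rw [← add_sum_erase univ _ (mem_univ y), ← add_sum_erase univ (fun i => (g i).toNat) (mem_univ y)]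
  have : ∑ i ∈ univ.erase y, (Function.update g y false i).toNat = ∑ i ∈ univ.erase y, (g i).toNat := by
    apply sum_congr rfl
    intro i hi
    rw [Function.update_of_ne (mem_erase.mp hi).1]
  rw [this, Function.update_self, hy]
  simp only [Bool.toNat_false, Bool.toNat_true]
  omega

/-- Consequences of local optimality. -/
theorem canon_ok {K : ℕ} {τ : Equiv.Perm (Fin (K * 3))} (W : Fin K → Bool) {x : Fin K → Bool}
    {g : Fin (K * 3) → Bool}
    (h : ∀ i, g (τ i) = true →
        cut0 (mk (fun _ => false) x g) (finProdFinEquiv.symm (τ i))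
          + cut1 (fun i => g (τ i)) i ≤ 1) :
    ok0 (mk W x g) ∧ ok1 (fun i => g (τ i)) ∧
      ∀ i ∈ setB (fun i => g (τ i)), τ i ∉ flatA (mk W x g) := by
  refine ⟨?_, ?_, ?_⟩
  · intro b hb
    have h1 : g (τ (τ.symm (finProdFinEquiv b))) = true := by
      rw [Equiv.apply_symm_apply]
      exact hb
    have h2 := h _ h1
    rw [Equiv.apply_symm_apply, Equiv.symm_apply_apply] at h2
    rw [cut0_mk]
    omega
  · intro i hi
    have := h i hi
    omega
  · intro i hi hA
    unfold setB at hi
    rw [mem_filter] at hi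
    have h1 := h i hi.2.1
    unfold flatA at hA
    rw [mem_map] at hA
    obtain ⟨b, hb, hbi⟩ := hA
    unfold setA at hb
    rw [mem_filter, cut0_mk] at hb
    have h3 : finProdFinEquiv.symm (τ i) = b := by
      rw [← hbi]
      simp
    rw [h3] at h1
    omega

/-! ### Complements -/

theorem rise_not (a b : Bool) : rise (!a) (!b) + b.toNat = rise a b + a.toNat := by
  cases a <;> cases b <;> decide

theorem R1_compl {n : ℕ} (f : Fin n → Bool) : R1 (fun i => !f i) = R1 f := by
  have e : ∑ p, (f (finRotate n p)).toNat = ∑ p, (f p).toNat :=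
    Equiv.sum_comp (finRotate n) (fun p => (f p).toNat)
  have h1 : ∑ i, (rise (!f i) (!f (finRotate n i)) + (f (finRotate n i)).toNat)
      = ∑ i, (rise (f i) (f (finRotate n i)) + (f i).toNat) := by
    apply sum_congr rfl
    intro i _
    exact rise_not _ _
  rw [sum_add_distrib, sum_add_distrib] at h1
  unfold R1
  beta_reduce
  omega

theorem R0_compl {K : ℕ} (W x : Fin K → Bool) (g : Fin (K * 3) → Bool) :
    R0 (mk W (fun p => !x p) (fun y => !g y)) = R0 (mk W x g) := by
  have e : ∑ p, (x (finRotate K p)).toNat = ∑ p, (x p).toNat :=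
    Equiv.sum_comp (finRotate K) (fun p => (x p).toNat)
  have h1 : ∑ p, ((cellR (mk W (fun p => !x p) (fun y => !g y) p)
        + rise ((mk W (fun p => !x p) (fun y => !g y) p).2.2 2)
          (mk W (fun p => !x p) (fun y => !g y) (finRotate K p)).2.1) + (x (finRotate K p)).toNat)
      = ∑ p, ((cellR (mk W x g p) + rise ((mk W x g p).2.2 2) (mk W x g (finRotate K p)).2.1)
        + (x p).toNat) := by
    apply sum_congr rfl
    intro p _
    simp only [mk, cellR]
    have a1 := rise_not (x p) (g (finProdFinEquiv (p, 0)))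
    have a2 := rise_not (g (finProdFinEquiv (p, 0))) (g (finProdFinEquiv (p, 1)))
    have a3 := rise_not (g (finProdFinEquiv (p, 1))) (g (finProdFinEquiv (p, 2)))
    have a4 := rise_not (g (finProdFinEquiv (p, 2))) (x (finRotate K p))
    omega
  have h2 : ∀ u v : Fin K → ℕ, ∑ p, (u p + v p) = ∑ p, u p + ∑ p, v p :=
    fun u v => sum_add_distrib
  rw [h2 (fun p => cellR (mk W (fun p => !x p) (fun y => !g y) p)
        + rise ((mk W (fun p => !x p) (fun y => !g y) p).2.2 2)
          (mk W (fun p => !x p) (fun y => !g y) (finRotate K p)).2.1),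
    h2 (fun p => cellR (mk W x g p) + rise ((mk W x g p).2.2 2)
      (mk W x g (finRotate K p)).2.1), e] at h1
  exact Nat.add_right_cancel h1

theorem RR_compl {K : ℕ} (τ : Equiv.Perm (Fin (K * 3))) (x : Fin K → Bool)
    (g : Fin (K * 3) → Bool) : RR τ (fun p => !x p) (fun y => !g y) = RR τ x g := by
  unfold RR
  rw [R0_compl, R1_compl (fun i => g (τ i))]

theorem bones_not {n : ℕ} (g : Fin n → Bool) : bones (fun i => !g i) + bones g = n := by
  unfold bones
  rw [← sum_add_distrib]
  calc ∑ i, ((!g i).toNat + (g i).toNat) = ∑ _i : Fin n, 1 := by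
        apply sum_congr rfl
        intro i _
        cases g i <;> rfl
    _ = n := by simp only [sum_const, card_univ, Fintype.card_fin, smul_eq_mul, mul_one]

theorem nX_mk_true {K : ℕ} (x : Fin K → Bool) (g : Fin (K * 3) → Bool) :
    nX (mk (fun _ => true) x g) = bones x := by
  unfold nX bones mk
  apply sum_congr rfl
  intro p _
  simp

theorem nX_mk_le {K : ℕ} (W x : Fin K → Bool) (g : Fin (K * 3) → Bool) :
    nX (mk W x g) ≤ bones x := by
  unfold nX bones mk
  apply sum_le_sum
  intro p _
  simp only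
  cases x p <;> cases W p <;> decide

theorem nY_mk_le {K : ℕ} (W x : Fin K → Bool) (g : Fin (K * 3) → Bool) :
    nY (mk W x g) ≤ bones (fun p => !x p) := by
  unfold nY bones mk
  apply sum_le_sum
  intro p _
  simp only
  cases x p <;> cases W p <;> decide

theorem nX_indep {K : ℕ} (W x : Fin K → Bool) (g g' : Fin (K * 3) → Bool) :
    nX (mk W x g) = nX (mk W x g') := rfl

theorem nY_indep {K : ℕ} (W x : Fin K → Bool) (g g' : Fin (K * 3) → Bool) :
    nY (mk W x g) = nY (mk W x g') := rfl

/-- The counting identity `nX + K = |x| + |W| + nY`. -/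
theorem nX_add {K : ℕ} (W x : Fin K → Bool) (g : Fin (K * 3) → Bool) :
    nX (mk W x g) + K = bones x + bones W + nY (mk W x g) := by
  have h : ∑ p : Fin K, ((x p && W p).toNat + 1)
      = ∑ p : Fin K, ((x p).toNat + (W p).toNat + (!x p && !W p).toNat) := by
    apply sum_congr rfl
    intro p _
    cases x p <;> cases W p <;> decide
  rw [sum_add_distrib, sum_add_distrib, sum_add_distrib, sum_const, card_univ, Fintype.card_fin,
    smul_eq_mul, mul_one] at h
  exact h

theorem nX_compl {K : ℕ} (W x : Fin K → Bool) (g g' : Fin (K * 3) → Bool) :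
    nX (mk (fun p => !W p) (fun p => !x p) g) = nY (mk W x g') := rfl

theorem nY_compl {K : ℕ} (W x : Fin K → Bool) (g g' : Fin (K * 3) → Bool) :
    nY (mk (fun p => !W p) (fun p => !x p) g) = nX (mk W x g') := by
  unfold nY nX mk
  simp only [Bool.not_not]

/-! ### Majority contacts and the canonical state -/

/-- The majority state of the contacts. -/
def xM {K : ℕ} (W : Fin K → Bool) (g : Fin (K * 3) → Bool) : Fin K → Bool := fun p =>
  maj (g (finProdFinEquiv ((finRotate K).symm p, 2))) (g (finProdFinEquiv (p, 0))) (W p)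

theorem okX_mk {K : ℕ} (W : Fin K → Bool) (g : Fin (K * 3) → Bool) :
    okX (mk W (xM W g) g) := by
  intro p
  simp only [mk, xM]
  rw [Equiv.symm_apply_apply]

theorem maj_X (a b w x : Bool) {p q : ℕ} (hqp : q ≤ p) :
    p * (rise a (maj a b w) + rise (maj a b w) b) + q * (x && w).toNat
      ≤ p * (rise a x + rise x b) + q * (maj a b w && w).toNat := by
  cases a <;> cases b <;> cases w <;> cases x <;> simp [maj, rise] <;> omega

theorem maj_Y (a b w x : Bool) {p q : ℕ} (hqp : q ≤ p) :
    p * (rise a (maj a b w) + rise (maj a b w) b) + q * (!x && !w).toNat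
      ≤ p * (rise a x + rise x b) + q * (!maj a b w && !w).toNat := by
  cases a <;> cases b <;> cases w <;> cases x <;> simp [maj, rise] <;> omega

/-- Rises of the 0-chain, contact by contact. -/
theorem R0_contacts {K : ℕ} (W x : Fin K → Bool) (g : Fin (K * 3) → Bool) :
    R0 (mk W x g) = ∑ p, (rise (g (finProdFinEquiv ((finRotate K).symm p, 2))) (x p)
        + rise (x p) (g (finProdFinEquiv (p, 0))))
      + ∑ p, (rise (g (finProdFinEquiv (p, 0))) (g (finProdFinEquiv (p, 1)))
        + rise (g (finProdFinEquiv (p, 1))) (g (finProdFinEquiv (p, 2)))) := by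
  have e : ∑ p, rise (g (finProdFinEquiv ((finRotate K).symm p, 2))) (x p)
      = ∑ p, rise (g (finProdFinEquiv (p, 2))) (x (finRotate K p)) := by
    rw [← Equiv.sum_comp (finRotate K)]
    apply sum_congr rfl
    intro p _
    rw [Equiv.symm_apply_apply]
  rw [sum_add_distrib, e, ← sum_add_distrib, ← sum_add_distrib]
  unfold R0
  apply sum_congr rfl
  intro p _
  simp only [mk, cellR]
  omega

theorem maj_le {K : ℕ} (W x : Fin K → Bool) (g : Fin (K * 3) → Bool) {p q : ℕ} (hqp : q ≤ p) :
    p * R0 (mk W (xM W g) g) + q * nX (mk W x g)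
        ≤ p * R0 (mk W x g) + q * nX (mk W (xM W g) g) ∧
      p * R0 (mk W (xM W g) g) + q * nY (mk W x g)
        ≤ p * R0 (mk W x g) + q * nY (mk W (xM W g) g) := by
  rw [R0_contacts, R0_contacts]
  have hX : ∀ y : Fin K → Bool, nX (mk W y g) = ∑ i, (y i && W i).toNat := fun _ => rfl
  have hY : ∀ y : Fin K → Bool, nY (mk W y g) = ∑ i, (!y i && !W i).toNat := fun _ => rfl
  rw [hX, hX, hY, hY]
  have h1 : ∑ i, (p * (rise (g (finProdFinEquiv ((finRotate K).symm i, 2))) (xM W g i)
        + rise (xM W g i) (g (finProdFinEquiv (i, 0)))) + q * (x i && W i).toNat)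
      ≤ ∑ i, (p * (rise (g (finProdFinEquiv ((finRotate K).symm i, 2))) (x i)
        + rise (x i) (g (finProdFinEquiv (i, 0)))) + q * (xM W g i && W i).toNat) :=
    sum_le_sum (fun i _ => maj_X _ _ _ _ hqp)
  have h2 : ∑ i, (p * (rise (g (finProdFinEquiv ((finRotate K).symm i, 2))) (xM W g i)
        + rise (xM W g i) (g (finProdFinEquiv (i, 0)))) + q * (!x i && !W i).toNat)
      ≤ ∑ i, (p * (rise (g (finProdFinEquiv ((finRotate K).symm i, 2))) (x i)
        + rise (x i) (g (finProdFinEquiv (i, 0)))) + q * (!xM W g i && !W i).toNat) :=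
    sum_le_sum (fun i _ => maj_Y _ _ _ _ hqp)
  have key : ∀ (u v : Fin K → ℕ), ∑ i, (p * u i + q * v i) = p * ∑ i, u i + q * ∑ i, v i := by
    intro u v
    rw [sum_add_distrib, mul_sum, mul_sum]
  rw [key (fun i => rise (g (finProdFinEquiv ((finRotate K).symm i, 2))) (xM W g i)
        + rise (xM W g i) (g (finProdFinEquiv (i, 0)))),
    key (fun i => rise (g (finProdFinEquiv ((finRotate K).symm i, 2))) (x i)
        + rise (x i) (g (finProdFinEquiv (i, 0))))] at h1 h2
  rw [mul_add p, mul_add p]
  constructor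
  · omega
  · omega

theorem nX_le {K : ℕ} (l : Fin K → Cell) : nX l ≤ K := by
  unfold nX
  calc ∑ p, ((l p).2.1 && (l p).1).toNat ≤ ∑ _p : Fin K, 1 := by
        apply sum_le_sum
        intro p _
        exact Bool.toNat_le _
    _ = K := by simp

/-- The cost to be minimised. -/
def cost (p q : ℕ) {K : ℕ} (τ : Equiv.Perm (Fin (K * 3))) (W x : Fin K → Bool)
    (g : Fin (K * 3) → Bool) : ℕ :=
  p * RR τ x g + q * (K - min (nX (mk W x g)) (nY (mk W x g)))

theorem cost_add {p q : ℕ} {K : ℕ} (τ : Equiv.Perm (Fin (K * 3))) (W x : Fin K → Bool)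
    (g : Fin (K * 3) → Bool) :
    cost p q τ W x g + q * min (nX (mk W x g)) (nY (mk W x g)) = p * RR τ x g + q * K := by
  unfold cost
  have h1 : min (nX (mk W x g)) (nY (mk W x g)) ≤ K := (min_le_left _ _).trans (nX_le _)
  rw [add_assoc, ← mul_add, Nat.sub_add_cancel h1]

theorem cost_xM {p q : ℕ} (hqp : q ≤ p) {K : ℕ} (τ : Equiv.Perm (Fin (K * 3)))
    (W x : Fin K → Bool) (g : Fin (K * 3) → Bool) :
    cost p q τ W (xM W g) g ≤ cost p q τ W x g := by
  obtain ⟨h1, h2⟩ := maj_le W x g hqp
  have e1 := cost_add (p := p) (q := q) τ W x g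
  have e2 := cost_add (p := p) (q := q) τ W (xM W g) g
  have h3 : q * min (nX (mk W (xM W g) g)) (nY (mk W (xM W g) g))
      = min (q * nX (mk W (xM W g) g)) (q * nY (mk W (xM W g) g)) := by
    rw [Nat.mul_min_mul_left]
  have h4 : q * min (nX (mk W x g)) (nY (mk W x g))
      = min (q * nX (mk W x g)) (q * nY (mk W x g)) := by
    rw [Nat.mul_min_mul_left]
  have h5 : RR τ x g = R0 (mk W x g) + R1 (fun i => g (τ i)) := rfl
  have h6 : RR τ (xM W g) g = R0 (mk W (xM W g) g) + R1 (fun i => g (τ i)) := rfl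
  rw [h3, h6, mul_add] at e2
  rw [h4, h5, mul_add] at e1
  omega

/-- The canonical state: least cost, then fewest ones. -/
theorem exists_canon {p q : ℕ} (hqp : q ≤ p) {K : ℕ} (hK : 0 < K) (τ : Equiv.Perm (Fin (K * 3)))
    (W : Fin K → Bool) :
    ∃ g : Fin (K * 3) → Bool, (∀ x' g', cost p q τ W (xM W g) g ≤ cost p q τ W x' g') ∧
      ∀ i, g (τ i) = true →
        cut0 (mk (fun _ => false) (xM W g) g) (finProdFinEquiv.symm (τ i))
          + cut1 (fun i => g (τ i)) i ≤ 1 := by
  classical
  obtain ⟨g, -, hg⟩ := exists_min_image (univ : Finset (Fin (K * 3) → Bool))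
    (fun g => cost p q τ W (xM W g) g * (K * 3 + 1) + bones g) ⟨fun _ => false, mem_univ _⟩
  have h1 : ∀ g', cost p q τ W (xM W g) g ≤ cost p q τ W (xM W g') g' := by
    intro g'
    by_contra hlt
    push Not at hlt
    have h2 : cost p q τ W (xM W g) g * (K * 3 + 1) + bones g
        ≤ cost p q τ W (xM W g') g' * (K * 3 + 1) + bones g' := hg g' (mem_univ _)
    have h3 := bones_le g'
    have h4 : (cost p q τ W (xM W g') g' + 1) * (K * 3 + 1)
        ≤ cost p q τ W (xM W g) g * (K * 3 + 1) := Nat.mul_le_mul_right _ hlt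
    have h5 : (cost p q τ W (xM W g') g' + 1) * (K * 3 + 1)
        = cost p q τ W (xM W g') g' * (K * 3 + 1) + (K * 3 + 1) := by ring
    omega
  have h2 : ∀ g', cost p q τ W (xM W g') g' ≤ cost p q τ W (xM W g) g → bones g ≤ bones g' := by
    intro g' hle
    have h3 : cost p q τ W (xM W g') g' = cost p q τ W (xM W g) g := le_antisymm hle (h1 g')
    have h4 : cost p q τ W (xM W g) g * (K * 3 + 1) + bones g
        ≤ cost p q τ W (xM W g') g' * (K * 3 + 1) + bones g' := hg g' (mem_univ _)
    rw [h3] at h4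
    omega
  refine ⟨g, fun x' g' => (h1 g').trans (cost_xM hqp τ W x' g'), ?_⟩
  intro i hi
  set y := τ i with hy
  set g' := Function.update g y false with hg'
  have e1 := R0_update (fun _ => false) (xM W g) g (finProdFinEquiv.symm y)
    (by rw [Equiv.apply_symm_apply]; exact hi)
  rw [Equiv.apply_symm_apply, ← hg'] at e1
  have e2 := R1_update (n := K * 3) (by omega) (fun i => g (τ i)) i hi
  have e3 : Function.update (fun i => g (τ i)) i false = fun i => g' (τ i) := by
    funext j
    by_cases hj : j = i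
    · subst hj
      rw [Function.update_self, hg', hy, Function.update_self]
    · rw [Function.update_of_ne hj, hg', Function.update_of_ne]
      intro h
      exact hj (τ.injective h)
  rw [e3] at e2
  have e4 := bones_update g y hi
  rw [← hg'] at e4
  have h5 : ¬ cost p q τ W (xM W g') g' ≤ cost p q τ W (xM W g) g := by
    intro h
    have := h2 g' h
    omega
  by_contra hcut
  push Not at hcut
  apply h5
  refine (cost_xM hqp τ W (xM W g) g').trans ?_
  have h6 : RR τ (xM W g) g' ≤ RR τ (xM W g) g := by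
    unfold RR
    omega
  have h7 := Nat.mul_le_mul_left p h6
  have h8 : nX (mk W (xM W g) g') = nX (mk W (xM W g) g) := rfl
  have h9 : nY (mk W (xM W g) g') = nY (mk W (xM W g) g) := rfl
  unfold cost
  rw [h8, h9]
  omega

/-- The core: a violating state gives a bad configuration. -/
theorem core {K : ℕ} (hK : 0 < K) (τ : Equiv.Perm (Fin (K * 3))) {p q s : ℕ} {r : ℝ}
    (hqp : q ≤ p) (W x : Fin K → Bool) (g₀ : Fin (K * 3) → Bool)
    (hB : ∀ x g, PB p q s r (mk W x g) (fun i => g (τ i)) →
      (∀ i ∈ setB (fun i => g (τ i)), τ i ∉ flatA (mk W x g)) → False)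
    (hPl : ∀ (x : Fin K → Bool) (g : Fin (K * 3) → Bool), (bones g : ℝ) / (K * 3 : ℕ) ≤ r →
      p * RR τ x g + q * s ≤ q * bones x → False)
    (h1 : p * RR τ x g₀ + q * s ≤ q * nX (mk W x g₀))
    (h2 : p * RR τ x g₀ + q * s ≤ q * nY (mk W x g₀)) : False := by
  obtain ⟨g, a1, a3⟩ := exists_canon hqp hK τ W
  have hN : (0 : ℝ) < (K * 3 : ℕ) := by
    have : 0 < K * 3 := by omega
    exact_mod_cast this
  have hbg : bones (fun i => g (τ i)) = bones g := bones_perm g τ
  set y := xM W g with hy
  have hc := a1 x g₀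
  have e1 := cost_add (p := p) (q := q) τ W x g₀
  have e2 := cost_add (p := p) (q := q) τ W y g
  rw [← Nat.mul_min_mul_left] at e1 e2
  have v1 : p * RR τ y g + q * s ≤ q * nX (mk W y g) := by omega
  have v2 : p * RR τ y g + q * s ≤ q * nY (mk W y g) := by omega
  by_cases c1 : (bones g : ℝ) / (K * 3 : ℕ) ≤ r
  · exact hPl y g c1 (v1.trans (Nat.mul_le_mul_left _ (nX_mk_le W y g)))
  by_cases c2 : (bones g : ℝ) / (K * 3 : ℕ) ≤ 1 - r
  · push Not at c1
    obtain ⟨o1, o2, o3⟩ := canon_ok W a3
    refine hB y g ⟨⟨okX_mk W g, o1, o2, v1, v2⟩, ?_, ?_⟩ o3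
    · rw [hbg]; exact c1.le
    · rw [hbg]; exact c2
  · push Not at c2
    refine hPl (fun p => !y p) (fun i => !g i) ?_ ?_
    · have h7 := bones_not g
      rw [div_le_iff₀ hN]
      rw [lt_div_iff₀ hN] at c2
      have h8 : (bones (fun i => !g i) : ℝ) + bones g = (K * 3 : ℕ) := by exact_mod_cast h7
      linarith only [h8, c2]
    · rw [RR_compl]
      exact v2.trans (Nat.mul_le_mul_left _ (nY_mk_le W y g))

/-! ### From words to the amplifier -/

section

variable {k t : ℕ}

/-- Marked positions. -/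
def markV (U : Finset (Fin k)) : Fin (k * t) → Bool :=
  fun p => decide ((finProdFinEquiv.symm p).1 ∈ U)

/-- Blocks in the order of the 0-chain. -/
def mkE3 (σ : Equiv.Perm (Fin (k * t))) : Fin (k * t * 3) ≃ (Fin k × Fin t) × Fin 3 :=
  finProdFinEquiv.symm.trans (Equiv.prodCongr (mkE0 σ) (Equiv.refl _))

/-- Order of the blocks in the 1-chain. -/
def mkE13 (σ : Equiv.Perm (Fin (k * t))) (τ : Equiv.Perm (Fin (k * t * 3))) :
    Fin (k * t * 3) ≃ (Fin k × Fin t) × Fin 3 := τ.trans (mkE3 σ)

theorem mkE3_apply (σ : Equiv.Perm (Fin (k * t))) (p : Fin (k * t)) (j : Fin 3) :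
    mkE3 σ (finProdFinEquiv (p, j)) = (mkE0 σ p, j) := by
  unfold mkE3
  rw [Equiv.trans_apply, Equiv.symm_apply_apply]
  rfl

theorem rises0_eq3 (σ : Equiv.Perm (Fin (k * t))) (m : (Fin k × Fin t) × Fin (2 + 1) → Bool)
    (x : Fin k × Fin t → Bool) (W : Fin (k * t) → Bool) :
    rises0 (rot (mkE0 σ)) m x
      = R0 (mk W (fun p => x (mkE0 σ p)) (fun y => m (mkE3 σ y))) := by
  unfold rises0 R0
  rw [← Equiv.sum_comp (mkE0 σ)]
  apply sum_congr rfl
  intro p _
  rw [rotE_apply]
  have h2 : (Fin.last 2 : Fin (2 + 1)) = 2 := rfl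
  simp only [mk, cellR, mkE3_apply, Fin.sum_univ_two, h2]
  have e0 : (0 : Fin 2).castSucc = (0 : Fin 3) := rfl
  have e1 : (0 : Fin 2).succ = (1 : Fin 3) := rfl
  have e2 : (1 : Fin 2).castSucc = (1 : Fin 3) := rfl
  have e3 : (1 : Fin 2).succ = (2 : Fin 3) := rfl
  rw [e0, e1, e2, e3]
  omega

theorem rises1_eq3 (σ : Equiv.Perm (Fin (k * t))) (τ : Equiv.Perm (Fin (k * t * 3)))
    (m : (Fin k × Fin t) × Fin (2 + 1) → Bool) :
    rises1 (rot (mkE13 σ τ)) m = R1 (fun i => m (mkE3 σ (τ i))) := by
  unfold rises1 R1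
  rw [← Equiv.sum_comp (mkE13 σ τ)]
  apply sum_congr rfl
  intro i _
  rw [rotE_apply]
  rfl

theorem bones_markV (σ : Equiv.Perm (Fin (k * t))) (U : Finset (Fin k)) :
    bones (fun p => markV U (σ p)) = t * U.card := by
  rw [bones_perm]
  unfold bones markV
  rw [Equiv.sum_comp finProdFinEquiv.symm (fun c : Fin k × Fin t => (decide (c.1 ∈ U)).toNat),
    Fintype.sum_prod_type]
  have e : ∀ a : Fin k, ∑ _b : Fin t, (decide (a ∈ U)).toNat = t * (decide (a ∈ U)).toNat := by
    intro a
    rw [sum_const, card_univ, Fintype.card_fin, smul_eq_mul]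
  calc ∑ a : Fin k, ∑ b : Fin t, (decide ((a, b).1 ∈ U)).toNat
      = ∑ a : Fin k, t * (decide (a ∈ U)).toNat := sum_congr rfl (fun a _ => e a)
    _ = t * U.card := ?_
  rw [← mul_sum]
  congr 1
  rw [card_eq_sum_ones, ← sum_filter_add_sum_filter_not univ (fun i => i ∈ U)]
  have h1 : ∑ x ∈ univ with x ∈ U, (decide (x ∈ U)).toNat = ∑ x ∈ U, 1 := by
    rw [filter_mem_eq_inter, univ_inter]
    apply sum_congr rfl
    intro x hx
    simp [hx]
  have h2 : ∑ x ∈ univ with x ∉ U, (decide (x ∈ U)).toNat = 0 := by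
    apply sum_eq_zero
    intro x hx
    rw [mem_filter] at hx
    simp [hx.2]
  rw [h1, h2, add_zero]

theorem bones_x3 (σ : Equiv.Perm (Fin (k * t))) (x : Fin k × Fin t → Bool) :
    bones (fun p => x (mkE0 σ p)) = (univ.filter (fun c => x c = true)).card := by
  unfold bones
  rw [Equiv.sum_comp (mkE0 σ) (fun c => (x c).toNat), card_filter]
  apply sum_congr rfl
  intro c _
  cases x c <;> simp

theorem nX_eq3 (σ : Equiv.Perm (Fin (k * t))) (x : Fin k × Fin t → Bool) (U : Finset (Fin k))
    (g : Fin (k * t * 3) → Bool) :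
    nX (mk (fun p => markV U (σ p)) (fun p => x (mkE0 σ p)) g)
      = (univ.filter (fun c : Fin k × Fin t => x c = true ∧ c.1 ∈ U)).card := by
  have h : nX (mk (fun p => markV U (σ p)) (fun p => x (mkE0 σ p)) g)
      = ∑ p, (x (mkE0 σ p) && decide ((mkE0 σ p).1 ∈ U)).toNat := rfl
  rw [h, Equiv.sum_comp (mkE0 σ) (fun c => (x c && decide (c.1 ∈ U)).toNat), card_filter]
  apply sum_congr rfl
  intro c _
  by_cases h1 : x c = true <;> by_cases h2 : c.1 ∈ U <;> simp [h1, h2]

/-- No bad configurations for `(σ, τ)`, in the form used by `core`. -/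
theorem not_ev_iff {K : ℕ} {P : (Fin K → Cell) → (Fin (K * 3) → Bool) → Prop} {V : Fin K → Bool}
    {σ : Equiv.Perm (Fin K)} {τ : Equiv.Perm (Fin (K * 3))} (h : ¬ ev K P V (σ, τ))
    (x : Fin K → Bool) (g : Fin (K * 3) → Bool)
    (h1 : P (mk (fun p => V (σ p)) x g) (fun i => g (τ i)))
    (h2 : ∀ i ∈ setB (fun i => g (τ i)), τ i ∉ flatA (mk (fun p => V (σ p)) x g)) : False := by
  apply h
  refine ⟨mk (fun p => V (σ p)) x g, rfl, ?_, ?_⟩
  · rw [flat_mk]
    exact h1
  · rw [flat_mk]
    exact h2

/-- The expansion property from the absence of bad configurations. -/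
theorem expandsK_of {p q s : ℕ} {ε r : ℝ} (hqp : q ≤ p) (hkt : 0 < k * t)
    (σ : Equiv.Perm (Fin (k * t))) (τ : Equiv.Perm (Fin (k * t * 3)))
    (hB : ∀ U : Finset (Fin k), k ≤ 2 * U.card → ¬ ev (k * t) (PB p q s r) (markV U) (σ, τ))
    (hPl : ∀ (x : Fin (k * t) → Bool) (g : Fin (k * t * 3) → Bool),
      (bones g : ℝ) / (k * t * 3 : ℕ) ≤ r →
      p * (R0 (mk (fun _ => false) x g) + R1 (fun i => g (τ i))) + q * s ≤ q * bones x → False)
    (hs : ((q * s : ℕ) : ℝ) ≤ ε * (k * t)) :
    H99.ExpandsK p q k t 2 ε (rot (mkE0 σ)) (rot (mkE13 σ τ)) := by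
  intro m x U hcon
  set X : Fin (k * t) → Bool := fun p => x (mkE0 σ p) with hX
  set g₀ : Fin (k * t * 3) → Bool := fun y => m (mkE3 σ y) with hg₀
  set W : Fin (k * t) → Bool := fun p => markV U (σ p) with hW
  have e0 : rises0 (rot (mkE0 σ)) m x + rises1 (rot (mkE13 σ τ)) m = RR τ X g₀ := by
    rw [rises0_eq3 σ m x (fun _ => false), rises1_eq3]
    rfl
  have eX : nX (mk W X g₀) = (univ.filter (fun c : Fin k × Fin t => x c = true ∧ c.1 ∈ U)).card :=
    nX_eq3 σ x U g₀
  have hXc : bones X = (univ.filter (fun c => x c = true)).card := bones_x3 σ x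
  have hWc : bones W = t * U.card := bones_markV σ U
  have hid := nX_add W X g₀
  rw [← hXc, ← hWc] at hcon
  by_contra hviol
  push Not at hviol
  rw [← eX] at hviol
  have hv : p * RR τ X g₀ + q * s ≤ q * nX (mk W X g₀) := by
    have h1 : (p : ℝ) * (RR τ X g₀ : ℝ) + ((q * s : ℕ) : ℝ) ≤ (q : ℝ) * (nX (mk W X g₀) : ℝ) := by
      have h2 : ((rises0 (rot (mkE0 σ)) m x : ℝ) + (rises1 (rot (mkE13 σ τ)) m : ℝ))
          = (RR τ X g₀ : ℝ) := by exact_mod_cast e0
      rw [h2] at hviol
      linarith only [hviol, hs]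
    exact_mod_cast h1
  have hxy : nX (mk W X g₀) ≤ nY (mk W X g₀) := by omega
  have hv2 : p * RR τ X g₀ + q * s ≤ q * nY (mk W X g₀) :=
    hv.trans (Nat.mul_le_mul_left _ hxy)
  by_cases hU : k ≤ 2 * U.card
  · exact core hkt τ hqp W X g₀ (fun x g => not_ev_iff (hB U hU) x g) hPl hv hv2
  · have hUc : k ≤ 2 * (Uᶜ).card := by
      rw [card_compl, Fintype.card_fin]
      omega
    have hWn : (fun p => markV (t := t) Uᶜ (σ p)) = fun p => !W p := by
      funext p
      rw [hW]
      unfold markV
      simp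
    refine core hkt τ hqp (fun p => !W p) (fun p => !X p) (fun y => !g₀ y) (fun x g => ?_) hPl ?_ ?_
    · have := not_ev_iff (hB Uᶜ hUc) x g
      rw [hWn] at this
      exact this
    · rw [RR_compl, nX_compl W X (fun y => !g₀ y) g₀]
      exact hv2
    · rw [RR_compl, nY_compl W X (fun y => !g₀ y) g₀]
      exact hv

end

end Vale.Agent.P333.R2.Ref
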